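import Vale.Agent.P143.Bridge

namespace Vale.Agent.Results.P143.FusfFactor

open Vale.Agent.P143

/-- The free uniform spanning forest is a factor of IID: on every Cayley graph of a finitely
generated group, and (by one isomorphism-invariant Borel rule) on every infinite connected
locally finite graph. -/
theorem result :
    (∀ (Γ : Type) [Group Γ] (S : Finset Γ), Subgroup.closure (S : Set Γ) = ⊤ →
      ∃ Φ : (Γ → unitInterval) → Set (Sym2 Γ), Measurable Φ ∧
        (∀ U, Φ U ⊆ (SimpleGraph.mulCayley (S : Set Γ)).edgeSet) ∧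
        (∀ (γ : Γ) (U : Γ → unitInterval),
          Φ (fun v => U (γ⁻¹ * v)) = Sym2.map (fun v => γ * v) '' Φ U) ∧
        IsFUSF (SimpleGraph.mulCayley (S : Set Γ)) ((iidUniform Γ).map Φ)) ∧
    ∃ Φ : SimpleGraph ℕ × (ℕ → unitInterval) → Set (Sym2 ℕ), Measurable Φ ∧
      (∀ G U, Φ (G, U) ⊆ G.edgeSet) ∧
      (∀ (G G' : SimpleGraph ℕ) (σ : G ≃g G') (U : ℕ → unitInterval),
        Φ (G', fun v => U (σ.symm v)) = Sym2.map σ '' Φ (G, U)) ∧
      ∀ G : SimpleGraph ℕ, G.Connected → (∀ v, (G.neighborSet v).Finite) →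
        IsFUSF G ((iidUniform ℕ).map fun U => Φ (G, U)) := by
  refine ⟨fun Γ _ S hS => ?_, fun p => Phi p.1 p.2, measurable_Phi, ?_, ?_, ?_⟩
  · have hc := cayley_conn hS
    have hf := cayley_fin S.finite_toSet
    have := countable_of_conn hc hf
    have hm : Measurable (Phi (SimpleGraph.mulCayley (S : Set Γ))) := measurable_Phi' _
    refine ⟨Phi (SimpleGraph.mulCayley (S : Set Γ)), hm, ?_, ?_, isFUSF_Phi hc hf⟩
    · intro U
      exact Xhat_subset _ _
    · intro γ U
      exact Phi_map (cayleyIso (S : Set Γ) γ) U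
  · intro G U
    exact Xhat_subset _ _
  · intro G G' σ U
    exact Phi_map σ U
  · intro G hc hG
    exact isFUSF_Phi hc hG

end Vale.Agent.Results.P143.FusfFactor
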